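import Vale.Agent.Lib.P074.Upper

/-!
# P074: no exponent above `1/3` is admissible

For every `d ≥ 2`, an exponent `α` that is admissible in the stability estimate
`‖T_μ - T_ν‖_{L^2(ρ)} ≤ C(K, Y) W_2(μ, ν)^α` for quadratic optimal transport maps satisfies
`α ≤ 1/3`.  In particular the exponent `1/2` (Letrouit's conjecture) is not admissible.
-/

namespace Vale.Agent.Results.P074.HalfNotAdmissible

open Vale.Agent.P074

theorem result : ∀ d : ℕ, 2 ≤ d → (∀ α : ℝ, Admissible d α → α ≤ 1 / 3) ∧ ¬ Admissible d (1 / 2) := by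
  intro d hd
  obtain ⟨n, rfl⟩ : ∃ n, d = n + 2 := ⟨d - 2, by omega⟩
  refine ⟨fun α h => upper_bound h, fun h => ?_⟩
  have := upper_bound h
  norm_num at this

end Vale.Agent.Results.P074.HalfNotAdmissible
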