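import Vale.Agent.Lib.P074Q.Main

open MeasureTheory Set
open scoped ENNReal NNReal

namespace Vale.Agent.Results.P074.Quarter

open Vale.Agent.P074Q

/-- The exponent `1/4` is admissible in every dimension `d ≥ 1`, so `1/4 ≤ alphaStar d`; moreover
optimal maps are `1/2`-Holder in `L¹` and `1/4`-Holder in `L²` for the distance `W₁`. -/
theorem result :
    ∀ d : ℕ, 1 ≤ d →
      IsAdmissible d (1 / 4) ∧ (1 / 4 : ℝ) ≤ alphaStar d ∧
      ∀ K : Set (Rd d), Convex ℝ K → IsCompact K → (interior K).Nonempty →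
        ∀ Y : Set (Rd d), IsCompact Y →
          ∃ C : ℝ≥0, ∀ μ ν : Measure (Rd d), IsProbabilityMeasure μ → IsProbabilityMeasure ν →
            μ Yᶜ = 0 → ν Yᶜ = 0 →
              ∀ T S : Rd d → Rd d, IsOptimalMap (unif K) μ T → IsOptimalMap (unif K) ν S →
                eLpNorm (T - S) 1 (unif K) ≤ C * wass 1 μ ν ^ (1 / 2 : ℝ) ∧
                eLpNorm (T - S) 2 (unif K) ≤ C * wass 1 μ ν ^ (1 / 4 : ℝ) := by
  intro d hd
  refine ⟨admissible_quarter hd, quarter_le_alphaStar hd, ?_⟩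
  intro K hKc hK hKi Y hY
  obtain ⟨C, hC⟩ := stability hd hKc hK hKi hY
  exact ⟨C, fun μ ν h1 h2 h3 h4 T S h5 h6 =>
    ⟨(hC μ ν h1 h2 h3 h4 T S h5 h6).1, (hC μ ν h1 h2 h3 h4 T S h5 h6).2.1⟩⟩

end Vale.Agent.Results.P074.Quarter
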