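import Vale.Agent.Lib.P074.Final

/-!
# P074: the stability exponent of quadratic optimal transport maps is `1/3`, and it is attained

For every `d ≥ 2` the exponent `1/3` is the greatest admissible exponent: for every compact convex
`K` with nonempty interior and every compact `Y` there is a finite `C` with
`‖T_μ - T_ν‖_{L^2(ρ)} ≤ C W_2(μ, ν)^{1/3}` for all probability measures `μ, ν` on `Y`, and no
exponent above `1/3` has this property.
-/

namespace Vale.Agent.Results.P074.StabilityExponent

open Vale.Agent.P074

theorem result : ∀ d : ℕ, 2 ≤ d → IsGreatest {α : ℝ | Admissible d α} (1 / 3) := by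
  intro d hd
  obtain ⟨n, rfl⟩ : ∃ n, d = n + 2 := ⟨d - 2, by omega⟩
  exact stability_exponent

end Vale.Agent.Results.P074.StabilityExponent
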